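import Mathlib
import Vale.Agent.P202.Defs
import Vale.Agent.P202.Mult

open IsLocalRing

namespace Vale.Agent.Results.P202.DirectSumFibre

open Vale.Agent.P202

/-- Lech's inequality for flat local homomorphisms `(R, m) → (S, n)` of Noetherian local rings
whose closed fibre `S / mS` is Artinian and has a maximal ideal which is the direct sum of the
principal ideals generated by the images of `y 1, ..., y t`. -/
theorem result {R S : Type*} [CommRing R] [CommRing S] [IsLocalRing R] [IsLocalRing S]
    [IsNoetherianRing R] [IsNoetherianRing S] [Algebra R S] [IsLocalHom (algebraMap R S)]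
    [Module.Flat R S]
    [IsArtinianRing (S ⧸ (maximalIdeal R).map (algebraMap R S))]
    {t : ℕ} (y : Fin t → S)
    (hgen : maximalIdeal S =
      (maximalIdeal R).map (algebraMap R S) ⊔ Ideal.span (Set.range y))
    (hind : iSupIndep fun i => (Ideal.span {y i}).map
      (Ideal.Quotient.mk ((maximalIdeal R).map (algebraMap R S)))) :
    ringKrullDim S = ringKrullDim R ∧
    (∀ N : ℕ, Module.length R (R ⧸ maximalIdeal R ^ N) ≤
      Module.length S (S ⧸ maximalIdeal S ^ N)) ∧
    (∀ eR eS : ℝ, IsHilbertSamuelMultiplicity R eR → IsHilbertSamuelMultiplicity S eS →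
      eR ≤ eS) := by
  have hdim : ringKrullDim S = ringKrullDim R := ringKrullDim_eq_of_isArtinianRing_fibre
  have hlen := length_le_length_of_supIndep (R := R) (S := S) y hgen
    (supIndep_of_iSupIndep _ y hind)
  exact ⟨hdim, hlen, mult_le_of_length_le hdim hlen⟩

end Vale.Agent.Results.P202.DirectSumFibre
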