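import Mathlib
import Vale.Agent.P202.Defs
import Vale.Agent.P202.Mult
import Vale.Agent.P202.Socle
import Vale.Agent.P202.Master

open IsLocalRing

namespace Vale.Agent.Results.P202.FibreClassesUnion

open Vale.Agent.P202

/-- Lech's inequality `e(R) ≤ e(S)` for flat local homomorphisms `(R, m) → (S, n)` of Noetherian
local rings with Artinian closed fibre `S / mS`, in each of three situations:
(A) the maximal ideal of the closed fibre is a direct sum of principal ideals;
(B) `mS + (y₁, y₂) + σ` is a reduction of `n`, where `σ n ≤ mS` (for `k = 0`: the closed fibre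
modulo its socle has embedding dimension at most two);
(C) `n` is integral over the filtration generated by `q = mS + (y)` in degree one and elements
`z j ∈ q` in degrees `w j`, and `∏ j, w j ≤ l(S/q)`; without the last condition,
`l(S/q) e(R) ≤ (∏ j, w j) e(S)`. -/
theorem result {R S : Type*} [CommRing R] [CommRing S] [IsLocalRing R] [IsLocalRing S]
    [IsNoetherianRing R] [IsNoetherianRing S] [Algebra R S] [IsLocalHom (algebraMap R S)]
    [Module.Flat R S]
    [IsArtinianRing (S ⧸ (maximalIdeal R).map (algebraMap R S))] :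
    ringKrullDim S = ringKrullDim R ∧
    (∀ (t : ℕ) (y : Fin t → S),
      maximalIdeal S = (maximalIdeal R).map (algebraMap R S) ⊔ Ideal.span (Set.range y) →
      (iSupIndep fun i => (Ideal.span {y i}).map
        (Ideal.Quotient.mk ((maximalIdeal R).map (algebraMap R S)))) →
      (∀ N : ℕ, Module.length R (R ⧸ maximalIdeal R ^ N) ≤
        Module.length S (S ⧸ maximalIdeal S ^ N)) ∧
      ∀ eR eS : ℝ, IsHilbertSamuelMultiplicity R eR → IsHilbertSamuelMultiplicity S eS →
        eR ≤ eS) ∧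
    (∀ (y₁ y₂ : S), y₁ ∈ maximalIdeal S → y₂ ∈ maximalIdeal S →
      ∀ (σ : Ideal S), σ * maximalIdeal S ≤ (maximalIdeal R).map (algebraMap R S) → ∀ k : ℕ,
      maximalIdeal S ^ (k + 1) ≤
        ((maximalIdeal R).map (algebraMap R S) ⊔ Ideal.span {y₁, y₂} ⊔ σ) * maximalIdeal S ^ k →
      (∃ s : ℕ, ∀ N : ℕ, Module.length R (R ⧸ maximalIdeal R ^ N) ≤
        Module.length S (S ⧸ maximalIdeal S ^ (N + s))) ∧
      ∀ eR eS : ℝ, IsHilbertSamuelMultiplicity R eR → IsHilbertSamuelMultiplicity S eS →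
        eR ≤ eS) ∧
    (∀ (y : S) (s : ℕ) (z : Fin s → S) (w : Fin s → ℕ), (∀ j, 1 ≤ w j) →
      (∀ j, z j ∈ (maximalIdeal R).map (algebraMap R S) ⊔ Ideal.span {y}) → ∀ k : ℕ,
      maximalIdeal S ^ (k + 1) ≤
        ((maximalIdeal R).map (algebraMap R S) ⊔ Ideal.span {y}) * maximalIdeal S ^ k ⊔
          ⨆ j, Ideal.span {z j} * maximalIdeal S ^ (k + 1 - w j) →
      (∀ N : ℕ,
        Module.length S (S ⧸ ((maximalIdeal R).map (algebraMap R S) ⊔ Ideal.span {y})) *
            Module.length R (R ⧸ maximalIdeal R ^ N) ≤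
          ((∏ j, w j : ℕ) : ℕ∞) * Module.length S (S ⧸ maximalIdeal S ^ (N + k))) ∧
      ∀ eR eS : ℝ, IsHilbertSamuelMultiplicity R eR → IsHilbertSamuelMultiplicity S eS →
        ((Module.length S
            (S ⧸ ((maximalIdeal R).map (algebraMap R S) ⊔ Ideal.span {y}))).toNat : ℝ) * eR ≤
          ((∏ j, w j : ℕ) : ℝ) * eS ∧
        (((∏ j, w j : ℕ) : ℕ∞) ≤ Module.length S
            (S ⧸ ((maximalIdeal R).map (algebraMap R S) ⊔ Ideal.span {y})) → eR ≤ eS)) := by
  have hdim : ringKrullDim S = ringKrullDim R := ringKrullDim_eq_of_isArtinianRing_fibre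
  refine ⟨hdim, ?_, ?_, ?_⟩
  · intro t y hgen hind
    have hlen := length_le_length_of_supIndep (R := R) (S := S) y hgen
      (supIndep_of_iSupIndep _ y hind)
    exact ⟨hlen, mult_le_of_length_le hdim hlen⟩
  · intro y₁ y₂ hy₁ hy₂ σ hσ k hred
    have hred' : maximalIdeal S ^ (k + 1) ≤
        (mS R S ⊔ Ideal.span {y₁} ⊔ Ideal.span {y₂} ⊔ σ) * maximalIdeal S ^ k := by
      rw [sup_assoc (mS R S), ← Ideal.span_insert]
      exact hred
    obtain ⟨s, hs⟩ :=
      length_le_length_shift_of_two_socle (R := R) (S := S) y₁ y₂ hy₁ hy₂ σ hσ k hred'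
    exact ⟨⟨s, hs⟩, mult_le_of_length_le_shift hdim s hs⟩
  · intro y s z w hw hz k hred
    have hlen := mul_length_le_of_weighted_reduction (R := R) (S := S) y z w hw hz k hred
    refine ⟨hlen, fun eR eS hR hS => ⟨?_, fun hle => ?_⟩⟩
    · have hfin : Module.length S (S ⧸ (mS R S ⊔ Ideal.span {y})) ≠ ⊤ :=
        ne_top_of_le_ne_top length_quot_mS_ne_top (length_quot_anti le_sup_left)
      obtain ⟨a, ha⟩ := ENat.ne_top_iff_exists.mp hfin
      rw [← ha, ENat.toNat_natCast]
      refine mul_mult_le_of_length_le_shift hdim a (∏ j, w j) k (fun N => ?_) eR eS hR hS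
      rw [ha]
      exact hlen N
    · refine mult_le_of_length_le_shift hdim k (fun N => ?_) eR eS hR hS
      have hb0 : ((∏ j, w j : ℕ) : ℕ∞) ≠ 0 := by
        have : ∏ j, w j ≠ 0 := Finset.prod_ne_zero_iff.mpr fun j _ => by have := hw j; omega
        exact_mod_cast this
      rw [← ENat.mul_le_mul_left_iff hb0 (ENat.natCast_ne_top _)]
      exact le_trans (by gcongr) (hlen N)

end Vale.Agent.Results.P202.FibreClassesUnion
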