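import Mathlib
import Vale.Agent.P202.Defs
import Vale.Agent.P202.Socle

open IsLocalRing

namespace Vale.Agent.Results.P202.SocleTwoGenerators

open Vale.Agent.P202

/-- Lech's inequality for flat local homomorphisms `(R, m) → (S, n)` of Noetherian local rings
with Artinian closed fibre such that `mS + (y₁, y₂) + σ` is a reduction of `n`, where
`y₁, y₂ ∈ n` and `σ` is an ideal with `σ n ≤ mS` (so `σ` maps into the socle of the closed fibre).
For `k = 0` and `σ = (mS : n)` the hypothesis says that the closed fibre modulo its socle has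
embedding dimension at most two. -/
theorem result {R S : Type*} [CommRing R] [CommRing S] [IsLocalRing R] [IsLocalRing S]
    [IsNoetherianRing R] [IsNoetherianRing S] [Algebra R S] [IsLocalHom (algebraMap R S)]
    [Module.Flat R S]
    [IsArtinianRing (S ⧸ (maximalIdeal R).map (algebraMap R S))]
    (y₁ y₂ : S) (hy₁ : y₁ ∈ maximalIdeal S) (hy₂ : y₂ ∈ maximalIdeal S)
    (σ : Ideal S) (hσ : σ * maximalIdeal S ≤ (maximalIdeal R).map (algebraMap R S)) (k : ℕ)
    (hred : maximalIdeal S ^ (k + 1) ≤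
      ((maximalIdeal R).map (algebraMap R S) ⊔ Ideal.span {y₁, y₂} ⊔ σ) * maximalIdeal S ^ k) :
    ringKrullDim S = ringKrullDim R ∧
    (∃ s : ℕ, ∀ N : ℕ, Module.length R (R ⧸ maximalIdeal R ^ N) ≤
      Module.length S (S ⧸ maximalIdeal S ^ (N + s))) ∧
    (∀ eR eS : ℝ, IsHilbertSamuelMultiplicity R eR → IsHilbertSamuelMultiplicity S eS →
      eR ≤ eS) := by
  have hdim : ringKrullDim S = ringKrullDim R := ringKrullDim_eq_of_isArtinianRing_fibre
  have hred' : maximalIdeal S ^ (k + 1) ≤
      (mS R S ⊔ Ideal.span {y₁} ⊔ Ideal.span {y₂} ⊔ σ) * maximalIdeal S ^ k := by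
    rw [sup_assoc (mS R S), ← Ideal.span_insert]
    exact hred
  obtain ⟨s, hs⟩ :=
    length_le_length_shift_of_two_socle (R := R) (S := S) y₁ y₂ hy₁ hy₂ σ hσ k hred'
  exact ⟨hdim, ⟨s, hs⟩, mult_le_of_length_le_shift hdim s hs⟩

end Vale.Agent.Results.P202.SocleTwoGenerators
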