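import Mathlib
import Vale.Agent.P202.Defs
import Vale.Agent.P202.Master

open IsLocalRing

namespace Vale.Agent.Results.P202.WeightedReduction

open Vale.Agent.P202

/-- Let `(R, m) → (S, n)` be a flat local homomorphism of Noetherian local rings with Artinian
closed fibre, let `q = mS + (y)`, and let `z j ∈ q` be elements with weights `w j ≥ 1` such that
`n ^ (k + 1) ≤ q * n ^ k + ∑ j, (z j) * n ^ (k + 1 - w j)`. Then
`l(S/q) * e(R) ≤ (∏ j, w j) * e(S)`; in particular `e(R) ≤ e(S)` when `∏ j, w j ≤ l(S/q)`. -/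
theorem result {R S : Type*} [CommRing R] [CommRing S] [IsLocalRing R] [IsLocalRing S]
    [IsNoetherianRing R] [IsNoetherianRing S] [Algebra R S] [IsLocalHom (algebraMap R S)]
    [Module.Flat R S]
    [IsArtinianRing (S ⧸ (maximalIdeal R).map (algebraMap R S))]
    (y : S) {s : ℕ} (z : Fin s → S) (w : Fin s → ℕ) (hw : ∀ j, 1 ≤ w j)
    (hz : ∀ j, z j ∈ (maximalIdeal R).map (algebraMap R S) ⊔ Ideal.span {y}) (k : ℕ)
    (hred : maximalIdeal S ^ (k + 1) ≤
      ((maximalIdeal R).map (algebraMap R S) ⊔ Ideal.span {y}) * maximalIdeal S ^ k ⊔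
        ⨆ j, Ideal.span {z j} * maximalIdeal S ^ (k + 1 - w j)) :
    ringKrullDim S = ringKrullDim R ∧
    (∀ N : ℕ,
      Module.length S (S ⧸ ((maximalIdeal R).map (algebraMap R S) ⊔ Ideal.span {y})) *
          Module.length R (R ⧸ maximalIdeal R ^ N) ≤
        ((∏ j, w j : ℕ) : ℕ∞) * Module.length S (S ⧸ maximalIdeal S ^ (N + k))) ∧
    (∀ eR eS : ℝ, IsHilbertSamuelMultiplicity R eR → IsHilbertSamuelMultiplicity S eS →
      ((Module.length S
          (S ⧸ ((maximalIdeal R).map (algebraMap R S) ⊔ Ideal.span {y}))).toNat : ℝ) * eR ≤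
        ((∏ j, w j : ℕ) : ℝ) * eS ∧
      (((∏ j, w j : ℕ) : ℕ∞) ≤ Module.length S
          (S ⧸ ((maximalIdeal R).map (algebraMap R S) ⊔ Ideal.span {y})) → eR ≤ eS)) := by
  have hdim : ringKrullDim S = ringKrullDim R := ringKrullDim_eq_of_isArtinianRing_fibre
  have hlen := mul_length_le_of_weighted_reduction (R := R) (S := S) y z w hw hz k hred
  refine ⟨hdim, hlen, fun eR eS hR hS => ⟨?_, fun hle => ?_⟩⟩
  · have hfin : Module.length S (S ⧸ (mS R S ⊔ Ideal.span {y})) ≠ ⊤ :=
      ne_top_of_le_ne_top length_quot_mS_ne_top (length_quot_anti le_sup_left)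
    obtain ⟨a, ha⟩ := ENat.ne_top_iff_exists.mp hfin
    rw [← ha, ENat.toNat_natCast]
    refine mul_mult_le_of_length_le_shift hdim a (∏ j, w j) k (fun N => ?_) eR eS hR hS
    rw [ha]
    exact hlen N
  · refine mult_le_of_length_le_shift hdim k (fun N => ?_) eR eS hR hS
    have hb0 : ((∏ j, w j : ℕ) : ℕ∞) ≠ 0 := by
      have : ∏ j, w j ≠ 0 := Finset.prod_ne_zero_iff.mpr fun j _ => by have := hw j; omega
      exact_mod_cast this
    rw [← ENat.mul_le_mul_left_iff hb0 (ENat.natCast_ne_top _)]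
    exact le_trans (by gcongr) (hlen N)

end Vale.Agent.Results.P202.WeightedReduction
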